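import Mathlib

/-!
P315, part A: conditional averages on a finite set `X` of leaves along a nested family of
partitions `q j : X → ℕ` (representation of helper679, note 14988).
-/

open Finset

namespace Vale.Agent.P315.H278

noncomputable section

variable {X : Type*} [Fintype X]

/-- average of `f` over the class of `x` for the labelling `r` -/
def cavg (r : X → ℕ) (f : X → ℝ) (x : X) : ℝ :=
  (∑ y ∈ univ.filter (fun y => r y = r x), f y) / ((univ.filter (fun y => r y = r x)).card : ℝ)

/-- average over the whole of `X` -/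
def mean (f : X → ℝ) : ℝ := (∑ x, f x) / (Fintype.card X : ℝ)

lemma cls_card_pos (r : X → ℕ) (x : X) :
    (0 : ℝ) < ((univ.filter (fun y => r y = r x)).card : ℝ) := by
  have : (univ.filter (fun y => r y = r x)).Nonempty := ⟨x, by simp⟩
  exact_mod_cast this.card_pos

lemma cavg_congr_cls (r : X → ℕ) (f : X → ℝ) {x y : X} (h : r x = r y) :
    cavg r f x = cavg r f y := by
  unfold cavg
  rw [h]

lemma cavg_eq_sum (r : X → ℕ) (f : X → ℝ) (x : X) :
    cavg r f x = ∑ y ∈ univ.filter (fun y => r y = r x),
      (1 / ((univ.filter (fun y => r y = r x)).card : ℝ)) * f y := by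
  unfold cavg
  rw [← mul_sum]
  ring

lemma cavg_mono (r : X → ℕ) {f g : X → ℝ} (x : X) (h : ∀ y, r y = r x → f y ≤ g y) :
    cavg r f x ≤ cavg r g x := by
  unfold cavg
  refine div_le_div_of_nonneg_right (sum_le_sum fun y hy => h y (by simpa using hy)) ?_
  exact (cls_card_pos r x).le

lemma cavg_congr (r : X → ℕ) {f g : X → ℝ} (x : X) (h : ∀ y, r y = r x → f y = g y) :
    cavg r f x = cavg r g x :=
  le_antisymm (cavg_mono r x fun y hy => (h y hy).le) (cavg_mono r x fun y hy => (h y hy).ge)

lemma cavg_const (r : X → ℕ) (c : ℝ) (x : X) : cavg r (fun _ => c) x = c := by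
  unfold cavg
  rw [sum_const, nsmul_eq_mul]
  field_simp [(cls_card_pos r x).ne']

lemma cavg_of_meas (r : X → ℕ) {f : X → ℝ} (x : X) (h : ∀ y, r y = r x → f y = f x) :
    cavg r f x = f x := by
  rw [cavg_congr r (g := fun _ => f x) x h, cavg_const]

lemma cavg_nonneg (r : X → ℕ) {f : X → ℝ} (x : X) (h : ∀ y, r y = r x → 0 ≤ f y) :
    0 ≤ cavg r f x := by
  have := cavg_mono r (f := fun _ => (0 : ℝ)) (g := f) x h
  rwa [cavg_const] at this

lemma cavg_add (r : X → ℕ) (f g : X → ℝ) (x : X) :
    cavg r (fun y => f y + g y) x = cavg r f x + cavg r g x := by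
  unfold cavg
  rw [sum_add_distrib, add_div]

lemma cavg_sub (r : X → ℕ) (f g : X → ℝ) (x : X) :
    cavg r (fun y => f y - g y) x = cavg r f x - cavg r g x := by
  unfold cavg
  rw [sum_sub_distrib, sub_div]

lemma cavg_sum {ι : Type*} (s : Finset ι) (r : X → ℕ) (f : ι → X → ℝ) (x : X) :
    cavg r (fun y => ∑ i ∈ s, f i y) x = ∑ i ∈ s, cavg r (f i) x := by
  unfold cavg
  rw [sum_comm, sum_div]

lemma cavg_mul_left (r : X → ℕ) (c : ℝ) (f : X → ℝ) (x : X) :
    cavg r (fun y => c * f y) x = c * cavg r f x := by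
  unfold cavg
  rw [← mul_sum, mul_div_assoc]

/-- pull-out of a measurable factor -/
lemma cavg_pull (r : X → ℕ) (g f : X → ℝ) (x : X) (h : ∀ y, r y = r x → g y = g x) :
    cavg r (fun y => g y * f y) x = g x * cavg r f x := by
  rw [cavg_congr r (g := fun y => g x * f y) x (fun y hy => by rw [h y hy]), cavg_mul_left]

lemma mean_mono {f g : X → ℝ} (h : ∀ x, f x ≤ g x) : mean f ≤ mean g := by
  unfold mean
  exact div_le_div_of_nonneg_right (sum_le_sum fun y _ => h y) (Nat.cast_nonneg _)

lemma mean_nonneg {f : X → ℝ} (h : ∀ x, 0 ≤ f x) : 0 ≤ mean f := by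
  unfold mean
  exact div_nonneg (sum_nonneg fun y _ => h y) (Nat.cast_nonneg _)

lemma mean_add (f g : X → ℝ) : mean (fun x => f x + g x) = mean f + mean g := by
  unfold mean
  rw [sum_add_distrib, add_div]

lemma mean_sub (f g : X → ℝ) : mean (fun x => f x - g x) = mean f - mean g := by
  unfold mean
  rw [sum_sub_distrib, sub_div]

lemma mean_sum {ι : Type*} (s : Finset ι) (f : ι → X → ℝ) :
    mean (fun y => ∑ i ∈ s, f i y) = ∑ i ∈ s, mean (f i) := by
  unfold mean
  rw [sum_comm, sum_div]

lemma mean_mul_left (c : ℝ) (f : X → ℝ) : mean (fun y => c * f y) = c * mean f := by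
  unfold mean
  rw [← mul_sum, mul_div_assoc]

lemma mean_const [Nonempty X] (c : ℝ) : mean (fun _ : X => c) = c := by
  unfold mean
  have : (0 : ℝ) < (Fintype.card X : ℝ) := by exact_mod_cast Fintype.card_pos
  rw [sum_const, nsmul_eq_mul, card_univ]
  field_simp

/-- the mean of a conditional average -/
lemma sum_cavg (r : X → ℕ) (f : X → ℝ) (s : Finset X)
    (hs : ∀ x ∈ s, ∀ y, r y = r x → y ∈ s) : ∑ x ∈ s, cavg r f x = ∑ x ∈ s, f x := by
  classical
  calc ∑ x ∈ s, cavg r f x
      = ∑ x ∈ s, ∑ y ∈ s, if r y = r x then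
          (1 / ((univ.filter (fun z => r z = r x)).card : ℝ)) * f y else 0 := by
        refine sum_congr rfl fun x hx => ?_
        rw [cavg_eq_sum, ← sum_filter]
        refine sum_congr ?_ fun _ _ => rfl
        ext y
        simp only [mem_filter, mem_univ, true_and]
        exact ⟨fun h => ⟨hs x hx y h, h⟩, fun h => h.2⟩
    _ = ∑ y ∈ s, ∑ x ∈ s, if r y = r x then
          (1 / ((univ.filter (fun z => r z = r x)).card : ℝ)) * f y else 0 := sum_comm
    _ = ∑ y ∈ s, f y := by
        refine sum_congr rfl fun y hy => ?_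
        have h1 : ∀ x ∈ s, (if r y = r x then
            (1 / ((univ.filter (fun z => r z = r x)).card : ℝ)) * f y else 0)
            = if r y = r x then
            (1 / ((univ.filter (fun z => r z = r y)).card : ℝ)) * f y else 0 := by
          intro x _
          split_ifs with h
          · rw [h]
          · rfl
        rw [sum_congr rfl h1, ← sum_filter, sum_const, nsmul_eq_mul]
        have h2 : s.filter (fun x => r y = r x) = univ.filter (fun z => r z = r y) := by
          ext x
          simp only [mem_filter, mem_univ, true_and]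
          exact ⟨fun h => h.2.symm, fun h => ⟨hs y hy x h, h.symm⟩⟩
        rw [h2]
        have := (cls_card_pos r y).ne'
        field_simp

lemma mean_cavg (r : X → ℕ) (f : X → ℝ) : mean (cavg r f) = mean f := by
  unfold mean
  rw [sum_cavg r f univ (fun _ _ _ _ => mem_univ _)]

/-- tower property -/
lemma cavg_tower (r r' : X → ℕ) (f : X → ℝ) (h : ∀ x y, r x = r y → r' x = r' y) (x : X) :
    cavg r' (cavg r f) x = cavg r' f x := by
  have : ∑ y ∈ univ.filter (fun y => r' y = r' x), cavg r f y
      = ∑ y ∈ univ.filter (fun y => r' y = r' x), f y := by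
    refine sum_cavg r f _ ?_
    intro z hz y hy
    simp only [mem_filter, mem_univ, true_and] at hz ⊢
    rw [← hz]
    exact h y z hy
  show (∑ y ∈ univ.filter (fun y => r' y = r' x), cavg r f y) / _ = _
  rw [this]
  rfl

end

end Vale.Agent.P315.H278
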