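import Mathlib

/-!
P315, PROOF.md part A, (F3) concentration lemma.

`Psi a p = p log (1/m) + m - a` with `m = max p a`, `a = e^{-A}`, is the primitive of
`q ↦ min (A, log (1/q))`.  All facts follow from the tangent lines
`Psi a p ≤ - p log c + c - a` (`c ≥ a`), with equality at `c = max p a`.
-/

open Finset

namespace Vale.Agent.P315.H278

noncomputable section

/-- the primitive of `min (log (1/a), log (1/q))` -/
def Psi (a p : ℝ) : ℝ := -(p * Real.log (max p a)) + max p a - a

lemma Psi_le_tangent {a p c : ℝ} (ha : 0 < a) (hc : a ≤ c) :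
    Psi a p ≤ -(p * Real.log c) + c - a := by
  have hc0 : 0 < c := lt_of_lt_of_le ha hc
  have hm : 0 < max p a := lt_max_of_lt_right ha
  have key : p * (Real.log c - Real.log (max p a)) ≤ c - max p a := by
    have h1 : Real.log c - Real.log (max p a) ≤ c / max p a - 1 := by
      rw [← Real.log_div hc0.ne' hm.ne']
      exact Real.log_le_sub_one_of_pos (div_pos hc0 hm)
    have h2 : max p a * (Real.log c - Real.log (max p a)) ≤ c - max p a := by
      calc max p a * (Real.log c - Real.log (max p a)) ≤ max p a * (c / max p a - 1) :=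
            mul_le_mul_of_nonneg_left h1 hm.le
        _ = c - max p a := by field_simp
    rcases le_or_gt (max p a) c with h | h
    · have h3 : 0 ≤ Real.log c - Real.log (max p a) :=
        sub_nonneg.2 (Real.log_le_log hm h)
      have h4 : p * (Real.log c - Real.log (max p a))
          ≤ max p a * (Real.log c - Real.log (max p a)) :=
        mul_le_mul_of_nonneg_right (le_max_left _ _) h3
      linarith
    · have hpa : max p a = p := by
        apply max_eq_left
        by_contra hcon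
        push Not at hcon
        rw [max_eq_right hcon.le] at h
        linarith
      rw [hpa] at h2 ⊢
      exact h2
  unfold Psi
  linarith [key]

lemma Psi_le_mul {a p : ℝ} (ha : 0 < a) : Psi a p ≤ -Real.log a * p := by
  have := Psi_le_tangent (p := p) ha le_rfl
  linarith

lemma Psi_nonneg {a p : ℝ} (ha : 0 < a) (ha1 : a ≤ 1) (hp : 0 ≤ p) (hp1 : p ≤ 1) :
    0 ≤ Psi a p := by
  have hm : 0 < max p a := lt_max_of_lt_right ha
  have hm1 : max p a ≤ 1 := max_le hp1 ha1
  have hlog : Real.log (max p a) ≤ 0 := Real.log_nonpos hm.le hm1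
  have h1 : 0 ≤ -(p * Real.log (max p a)) := by nlinarith
  have h2 : a ≤ max p a := le_max_right _ _
  unfold Psi
  linarith

/-- tangent comparison of two values -/
lemma Psi_sub_le {a p p' : ℝ} (ha : 0 < a) :
    Psi a p - Psi a p' ≤ (p - p') * (-Real.log (max p' a)) := by
  have h := Psi_le_tangent (p := p) ha (le_max_right p' a)
  unfold Psi at h ⊢
  linarith

lemma Psi_sub_le_max {a p p' : ℝ} (ha : 0 < a) (ha1 : a ≤ 1) (hp1' : p' ≤ 1) :
    Psi a p - Psi a p' ≤ -Real.log a * max (p - p') 0 := by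
  have h := Psi_sub_le (p := p) (p' := p') ha
  have hm : 0 < max p' a := lt_max_of_lt_right ha
  have hm1 : max p' a ≤ 1 := max_le hp1' ha1
  have h0 : 0 ≤ -Real.log (max p' a) := by
    have := Real.log_nonpos hm.le hm1
    linarith
  have h1 : -Real.log (max p' a) ≤ -Real.log a := by
    have := Real.log_le_log ha (le_max_right p' a)
    linarith
  calc Psi a p - Psi a p' ≤ (p - p') * (-Real.log (max p' a)) := h
    _ ≤ max (p - p') 0 * (-Real.log (max p' a)) :=
        mul_le_mul_of_nonneg_right (le_max_left _ _) h0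
    _ ≤ max (p - p') 0 * (-Real.log a) :=
        mul_le_mul_of_nonneg_left h1 (le_max_right _ _)
    _ = -Real.log a * max (p - p') 0 := by ring

/-- an excess value: `q ≥ e³ p` and `q ≥ e³ a` lies `2 q` below the tangent at `max p a` -/
lemma Psi_excess {a p q : ℝ} (ha : 0 < a) (h1 : Real.exp 3 * p ≤ q)
    (h2 : Real.exp 3 * a ≤ q) :
    Psi a q + 2 * q ≤ -(q * Real.log (max p a)) + max p a - a := by
  have he : 1 ≤ Real.exp 3 := Real.one_le_exp (by norm_num)
  have hm : 0 < max p a := lt_max_of_lt_right ha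
  have hcq : Real.exp 3 * max p a ≤ q := by
    rcases le_total p a with h | h
    · rw [max_eq_right h]; exact h2
    · rw [max_eq_left h]; exact h1
  have hq : 0 < q := lt_of_lt_of_le (by positivity) h2
  have hqa : a ≤ q := by nlinarith
  have hlog : 3 + Real.log (max p a) ≤ Real.log q := by
    have := Real.log_le_log (by positivity) hcq
    rwa [Real.log_mul (Real.exp_pos 3).ne' hm.ne', Real.log_exp] at this
  unfold Psi
  rw [max_eq_left hqa]
  nlinarith

/-- **(F3), one step.**  Concavity of `Psi` with the gain of the excess units. -/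
theorem conc {ι : Type*} (s : Finset ι) (w q : ι → ℝ) {a Lam : ℝ}
    (hw : ∀ i ∈ s, 0 ≤ w i) (hsum : ∑ i ∈ s, w i = 1) (hq : ∀ i ∈ s, 0 ≤ q i)
    (ha : 0 < a) (hL : Real.exp 3 ≤ Lam) :
    ∑ i ∈ s, w i * Psi a (q i)
      + 2 * ∑ i ∈ s, w i * (if Lam * (∑ j ∈ s, w j * q j) ≤ q i ∧ Real.exp 3 * a ≤ q i
          then q i else 0)
      ≤ Psi a (∑ j ∈ s, w j * q j) := by
  set p : ℝ := ∑ j ∈ s, w j * q j with hp
  have hp0 : 0 ≤ p := sum_nonneg fun i hi => mul_nonneg (hw i hi) (hq i hi)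
  have hpt : ∀ i ∈ s, w i * Psi a (q i)
      + 2 * (w i * (if Lam * p ≤ q i ∧ Real.exp 3 * a ≤ q i then q i else 0))
      ≤ w i * (-(q i * Real.log (max p a)) + max p a - a) := by
    intro i hi
    have hwi := hw i hi
    split_ifs with hif
    · have h1 : Real.exp 3 * p ≤ q i := le_trans (mul_le_mul_of_nonneg_right hL hp0) hif.1
      have := Psi_excess ha h1 hif.2
      nlinarith
    · have := Psi_le_tangent (p := q i) ha (le_max_right p a)
      nlinarith
  calc ∑ i ∈ s, w i * Psi a (q i)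
      + 2 * ∑ i ∈ s, w i * (if Lam * p ≤ q i ∧ Real.exp 3 * a ≤ q i then q i else 0)
      = ∑ i ∈ s, (w i * Psi a (q i)
        + 2 * (w i * (if Lam * p ≤ q i ∧ Real.exp 3 * a ≤ q i then q i else 0))) := by
        rw [sum_add_distrib, mul_sum]
    _ ≤ ∑ i ∈ s, w i * (-(q i * Real.log (max p a)) + max p a - a) := sum_le_sum hpt
    _ = Psi a p := by
        have : ∀ i ∈ s, w i * (-(q i * Real.log (max p a)) + max p a - a)
            = (w i * q i) * (-Real.log (max p a)) + w i * (max p a - a) := by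
          intro i _; ring
        rw [sum_congr rfl this, sum_add_distrib, ← sum_mul, ← sum_mul, hsum, ← hp]
        unfold Psi
        ring

/-- **(F3), one step, with the comparison `p ≤ ν_R + G`.** -/
theorem conc_step {ι : Type*} (s : Finset ι) (w q : ι → ℝ) {a Lam nu G : ℝ}
    (hw : ∀ i ∈ s, 0 ≤ w i) (hsum : ∑ i ∈ s, w i = 1) (hq : ∀ i ∈ s, 0 ≤ q i)
    (ha : 0 < a) (ha1 : a ≤ 1) (hL : Real.exp 3 ≤ Lam) (hnu1 : nu ≤ 1) (hG : 0 ≤ G)
    (hpG : ∑ j ∈ s, w j * q j ≤ nu + G) :
    ∑ i ∈ s, w i * Psi a (q i)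
      + 2 * ∑ i ∈ s, w i * (if Lam * (∑ j ∈ s, w j * q j) ≤ q i ∧ Real.exp 3 * a ≤ q i
          then q i else 0)
      ≤ Psi a nu + (-Real.log a) * G := by
  have h1 := conc s w q hw hsum hq ha hL
  have h2 := Psi_sub_le_max (p := ∑ j ∈ s, w j * q j) (p' := nu) ha ha1 hnu1
  have h3 : max (∑ j ∈ s, w j * q j - nu) 0 ≤ G := max_le (by linarith) hG
  have h4 : 0 ≤ -Real.log a := by
    have := Real.log_nonpos ha.le ha1
    linarith
  have h5 := mul_le_mul_of_nonneg_left h3 h4
  linarith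

/-- **(F3) CONCENTRATION LEMMA, telescoped** over the levels `0, 1, ..., m` (level `k` here is
level `k 2^t` of the tree), for arbitrary averaging kernels.
`T k` nodes of level `k` with weights `W k` of sum one, `P k R U` share of the unit `U : T k` below
the top `R : T (k+1)`; `B` finite set of blocks; `nu k R B` drop of `R` on the block `B`;
`G k R B` gain of the top `R : T (k+1)` at the beginning of `B`. -/
theorem conc_sum {𝓑 : Type*} [Fintype 𝓑] (m : ℕ) (T : ℕ → Type*) [∀ k, Fintype (T k)]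
    (W : ∀ k, T k → ℝ) (P : ∀ k, T (k + 1) → T k → ℝ)
    (hW0 : ∀ k R, 0 ≤ W k R) (hW1 : ∀ k, ∑ R, W k R = 1)
    (hP0 : ∀ k R U, 0 ≤ P k R U) (hP1 : ∀ k R, ∑ U, P k R U = 1)
    (hcons : ∀ k U, W k U = ∑ R, W (k + 1) R * P k R U)
    (nu : ∀ k, T k → 𝓑 → ℝ) (G : ∀ k, T (k + 1) → 𝓑 → ℝ)
    (hnu0 : ∀ k R B, 0 ≤ nu k R B) (hnuS : ∀ k R, ∑ B, nu k R B ≤ 1)
    (hG0 : ∀ k R B, 0 ≤ G k R B)
    (hpG : ∀ k R B, ∑ U, P k R U * nu k U B ≤ nu (k + 1) R B + G k R B)
    {a Lam : ℝ} (ha : 0 < a) (ha1 : a ≤ 1) (hL : Real.exp 3 ≤ Lam) :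
    2 * ∑ k ∈ range m, ∑ R, W (k + 1) R * ∑ B, ∑ U, P k R U *
        (if Lam * (∑ U', P k R U' * nu k U' B) ≤ nu k U B ∧ Real.exp 3 * a ≤ nu k U B
          then nu k U B else 0)
      ≤ (-Real.log a) * (1 + ∑ k ∈ range m, ∑ R, W (k + 1) R * ∑ B, G k R B) := by
  classical
  have hA : 0 ≤ -Real.log a := by
    have := Real.log_nonpos ha.le ha1
    linarith
  have hnu1 : ∀ k R B, nu k R B ≤ 1 := fun k R B =>
    le_trans (single_le_sum (f := fun B => nu k R B) (fun B _ => hnu0 k R B) (mem_univ B))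
      (hnuS k R)
  let H : ℕ → ℝ := fun k => ∑ R, W k R * ∑ B, Psi a (nu k R B)
  let X : ℕ → ℝ := fun k => ∑ R, W (k + 1) R * ∑ B, ∑ U, P k R U *
        (if Lam * (∑ U', P k R U' * nu k U' B) ≤ nu k U B ∧ Real.exp 3 * a ≤ nu k U B
          then nu k U B else 0)
  let Y : ℕ → ℝ := fun k => ∑ R, W (k + 1) R * ∑ B, G k R B
  have hstep : ∀ k, H k + 2 * X k ≤ H (k + 1) + (-Real.log a) * Y k := by
    intro k
    have e1 : H k = ∑ R, W (k + 1) R * ∑ B, ∑ U, P k R U * Psi a (nu k U B) := by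
      show ∑ U, W k U * ∑ B, Psi a (nu k U B) = _
      calc ∑ U, W k U * ∑ B, Psi a (nu k U B)
          = ∑ U, ∑ R, W (k + 1) R * P k R U * ∑ B, Psi a (nu k U B) := by
            refine sum_congr rfl fun U _ => ?_
            rw [hcons k U, sum_mul]
        _ = ∑ R, ∑ U, W (k + 1) R * P k R U * ∑ B, Psi a (nu k U B) := sum_comm
        _ = ∑ R, W (k + 1) R * ∑ B, ∑ U, P k R U * Psi a (nu k U B) := by
            refine sum_congr rfl fun R _ => ?_
            rw [sum_comm (f := fun B U => P k R U * Psi a (nu k U B)), mul_sum]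
            refine sum_congr rfl fun U _ => ?_
            rw [← mul_sum, mul_assoc]
    rw [e1]
    show _ + 2 * (∑ R, W (k + 1) R * ∑ B, ∑ U, P k R U * _) ≤
      (∑ R, W (k + 1) R * ∑ B, Psi a (nu (k + 1) R B))
        + (-Real.log a) * (∑ R, W (k + 1) R * ∑ B, G k R B)
    rw [mul_sum, mul_sum, ← sum_add_distrib, ← sum_add_distrib]
    refine sum_le_sum fun R _ => ?_
    have hR : ∑ B, ∑ U, P k R U * Psi a (nu k U B)
        + 2 * ∑ B, ∑ U, P k R U *
          (if Lam * (∑ U', P k R U' * nu k U' B) ≤ nu k U B ∧ Real.exp 3 * a ≤ nu k U B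
            then nu k U B else 0)
        ≤ ∑ B, Psi a (nu (k + 1) R B) + (-Real.log a) * ∑ B, G k R B := by
      rw [mul_sum, mul_sum, ← sum_add_distrib, ← sum_add_distrib]
      refine sum_le_sum fun B _ => ?_
      exact conc_step univ (P k R) (fun U => nu k U B) (fun U _ => hP0 k R U) (hP1 k R)
        (fun U _ => hnu0 k U B) ha ha1 hL (hnu1 (k + 1) R B) (hG0 k R B) (hpG k R B)
    have := mul_le_mul_of_nonneg_left hR (hW0 (k + 1) R)
    nlinarith [this]
  have hH0 : 0 ≤ H 0 := by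
    refine sum_nonneg fun R _ => mul_nonneg (hW0 0 R) (sum_nonneg fun B _ => ?_)
    exact Psi_nonneg ha ha1 (hnu0 0 R B) (hnu1 0 R B)
  have hHm : H m ≤ -Real.log a := by
    have h1 : ∀ R, W m R * ∑ B, Psi a (nu m R B) ≤ W m R * (-Real.log a) := by
      intro R
      refine mul_le_mul_of_nonneg_left ?_ (hW0 m R)
      calc ∑ B, Psi a (nu m R B) ≤ ∑ B, (-Real.log a) * nu m R B :=
            sum_le_sum fun B _ => Psi_le_mul ha
        _ = (-Real.log a) * ∑ B, nu m R B := by rw [mul_sum]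
        _ ≤ (-Real.log a) * 1 := mul_le_mul_of_nonneg_left (hnuS m R) hA
        _ = -Real.log a := by ring
    calc H m ≤ ∑ R, W m R * (-Real.log a) := sum_le_sum fun R _ => h1 R
      _ = -Real.log a := by rw [← sum_mul, hW1 m, one_mul]
  have htel : ∀ j, H 0 + 2 * ∑ k ∈ range j, X k ≤ H j + (-Real.log a) * ∑ k ∈ range j, Y k := by
    intro j
    induction j with
    | zero => simp
    | succ j ih =>
      rw [sum_range_succ, sum_range_succ]
      have := hstep j
      nlinarith
  have := htel m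
  show 2 * ∑ k ∈ range m, X k ≤ (-Real.log a) * (1 + ∑ k ∈ range m, Y k)
  nlinarith

end

end Vale.Agent.P315.H278
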