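import Vale.Agent.P315.H278.Conc
import Vale.Agent.P315.H278.Avg

/-!
P315, part A, (F3) CONCENTRATION LEMMA in the frame of helper679 (note 14988): functions on the
finite set `X` of leaves, labellings `q j : X → ℕ`, conditional averages `cavg`, `mean`.
-/

open Finset

namespace Vale.Agent.P315.H278

noncomputable section

variable {X : Type*} [Fintype X]

/-- one step, one class, one block -/
theorem conc_cavg (r : X → ℕ) (f : X → ℝ) {a Lam nu G : ℝ} (hf : ∀ x, 0 ≤ f x)
    (ha : 0 < a) (ha1 : a ≤ 1) (hL : Real.exp 3 ≤ Lam) (hnu1 : nu ≤ 1) (hG : 0 ≤ G) (x : X)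
    (hpG : cavg r f x ≤ nu + G) :
    cavg r (fun y => Psi a (f y) + 2 *
        (if Lam * cavg r f y ≤ f y ∧ Real.exp 3 * a ≤ f y then f y else 0)) x
      ≤ Psi a nu + (-Real.log a) * G := by
  classical
  set s := univ.filter (fun y => r y = r x) with hs
  set w : X → ℝ := fun _ => 1 / (s.card : ℝ) with hw
  have hpos : (0 : ℝ) < (s.card : ℝ) := cls_card_pos r x
  have hsum : ∑ y ∈ s, w y = 1 := by
    simp only [hw]
    rw [sum_const, nsmul_eq_mul]
    field_simp
  have hp : ∑ y ∈ s, w y * f y = cavg r f x := (cavg_eq_sum r f x).symm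
  have h := conc_step s w f (a := a) (Lam := Lam) (nu := nu) (G := G)
    (fun i _ => by simp only [hw]; positivity) hsum (fun i _ => hf i) ha ha1 hL hnu1 hG
    (by rw [hp]; exact hpG)
  rw [hp] at h
  refine le_trans (le_of_eq ?_) h
  rw [cavg_eq_sum, mul_sum, ← sum_add_distrib]
  refine sum_congr rfl fun y hy => ?_
  have hy' : r y = r x := by simpa [hs] using hy
  rw [cavg_congr_cls r f hy']
  simp only [hw]
  ring

/-- one level -/
theorem conc_level {𝓑 : Type*} (S : Finset 𝓑) (r : X → ℕ) (nu nu' G : X → 𝓑 → ℝ) {a Lam : ℝ}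
    (hnu : ∀ x B, 0 ≤ nu x B) (ha : 0 < a) (ha1 : a ≤ 1) (hL : Real.exp 3 ≤ Lam)
    (hnu1 : ∀ x, ∀ B ∈ S, nu' x B ≤ 1) (hG : ∀ x B, 0 ≤ G x B)
    (hpG : ∀ x, ∀ B ∈ S, cavg r (fun y => nu y B) x ≤ nu' x B + G x B) :
    mean (fun x => ∑ B ∈ S, Psi a (nu x B))
      + 2 * mean (fun x => ∑ B ∈ S,
        (if Lam * cavg r (fun y => nu y B) x ≤ nu x B ∧ Real.exp 3 * a ≤ nu x B
          then nu x B else 0))
      ≤ mean (fun x => ∑ B ∈ S, Psi a (nu' x B)) + (-Real.log a) * mean (fun x => ∑ B ∈ S, G x B)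
      := by
  rw [← mean_mul_left, ← mean_mul_left, ← mean_add, ← mean_add]
  have e1 : mean (fun x => ∑ B ∈ S, Psi a (nu x B) + 2 * ∑ B ∈ S,
        (if Lam * cavg r (fun y => nu y B) x ≤ nu x B ∧ Real.exp 3 * a ≤ nu x B
          then nu x B else 0))
      = mean (fun x => ∑ B ∈ S, cavg r (fun y => Psi a (nu y B) + 2 *
        (if Lam * cavg r (fun z => nu z B) y ≤ nu y B ∧ Real.exp 3 * a ≤ nu y B
          then nu y B else 0)) x) := by
    rw [mean_sum, sum_congr rfl fun B _ => mean_cavg r _, ← mean_sum]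
    congr 1
    funext x
    rw [mul_sum, ← sum_add_distrib]
  rw [e1]
  refine mean_mono fun x => ?_
  rw [mul_sum, ← sum_add_distrib]
  refine sum_le_sum fun B hB => ?_
  exact conc_cavg r (fun y => nu y B) (fun y => hnu y B) ha ha1 hL (hnu1 x B hB) (hG x B) x
    (hpG x B hB)

/-- **(F3) CONCENTRATION LEMMA**, telescoped over the levels `k = 0, ..., m - 1` (units of level `k`
below tops of level `k + 1`; `r k` = labelling by the nodes of level `k`). -/
theorem conc_levels [Nonempty X] {𝓑 : Type*} (S : Finset 𝓑) (m : ℕ) (r : ℕ → X → ℕ)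
    (nu G : ℕ → X → 𝓑 → ℝ) {a Lam : ℝ}
    (hnu : ∀ k x B, 0 ≤ nu k x B) (hnuS : ∀ k x, ∑ B ∈ S, nu k x B ≤ 1)
    (hG : ∀ k x B, 0 ≤ G k x B)
    (hpG : ∀ k, k < m → ∀ x, ∀ B ∈ S,
      cavg (r (k + 1)) (fun y => nu k y B) x ≤ nu (k + 1) x B + G k x B)
    (ha : 0 < a) (ha1 : a ≤ 1) (hL : Real.exp 3 ≤ Lam) :
    2 * ∑ k ∈ range m, mean (fun x => ∑ B ∈ S,
        (if Lam * cavg (r (k + 1)) (fun y => nu k y B) x ≤ nu k x B ∧ Real.exp 3 * a ≤ nu k x B
          then nu k x B else 0))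
      ≤ (-Real.log a) * (1 + ∑ k ∈ range m, mean (fun x => ∑ B ∈ S, G k x B)) := by
  have hA : 0 ≤ -Real.log a := by
    have := Real.log_nonpos ha.le ha1
    linarith
  have hnu1 : ∀ k x, ∀ B ∈ S, nu k x B ≤ 1 := fun k x B hB =>
    le_trans (single_le_sum (f := fun B => nu k x B) (fun B _ => hnu k x B) hB) (hnuS k x)
  have htel : ∀ j, j ≤ m → mean (fun x => ∑ B ∈ S, Psi a (nu 0 x B))
      + 2 * ∑ k ∈ range j, mean (fun x => ∑ B ∈ S,
        (if Lam * cavg (r (k + 1)) (fun y => nu k y B) x ≤ nu k x B ∧ Real.exp 3 * a ≤ nu k x B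
          then nu k x B else 0))
      ≤ mean (fun x => ∑ B ∈ S, Psi a (nu j x B))
        + (-Real.log a) * ∑ k ∈ range j, mean (fun x => ∑ B ∈ S, G k x B) := by
    intro j
    induction j with
    | zero => intro _; simp
    | succ j ih =>
      intro hj
      have h1 := ih (by omega)
      have h2 := conc_level S (r (j + 1)) (nu j) (nu (j + 1)) (G j) (hnu j) ha ha1 hL
        (hnu1 (j + 1)) (hG j) (hpG j (by omega))
      rw [sum_range_succ, sum_range_succ]
      linarith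
  have h0 : 0 ≤ mean (fun x => ∑ B ∈ S, Psi a (nu 0 x B)) :=
    mean_nonneg fun x => sum_nonneg fun B hB => Psi_nonneg ha ha1 (hnu 0 x B) (hnu1 0 x B hB)
  have hm : mean (fun x => ∑ B ∈ S, Psi a (nu m x B)) ≤ -Real.log a := by
    calc mean (fun x => ∑ B ∈ S, Psi a (nu m x B)) ≤ mean (fun _ : X => -Real.log a) := by
          refine mean_mono fun x => ?_
          calc ∑ B ∈ S, Psi a (nu m x B) ≤ ∑ B ∈ S, (-Real.log a) * nu m x B :=
                sum_le_sum fun B _ => Psi_le_mul ha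
            _ = (-Real.log a) * ∑ B ∈ S, nu m x B := by rw [mul_sum]
            _ ≤ (-Real.log a) * 1 := mul_le_mul_of_nonneg_left (hnuS m x) hA
            _ = -Real.log a := by ring
      _ = -Real.log a := mean_const _
  have := htel m le_rfl
  linarith

end

end Vale.Agent.P315.H278
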