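import Vale.Agent.P315.H679.AccDefs
import Vale.Agent.P315.H278.Conc

/-!
P315, part A, (F3) CONCENTRATION LEMMA over `H679/AccDefs` (weighted averages).
Level step `2^t`, blocks of scale `u` (in step 3d `u = t`, in step 5e `u = t + 1`).
-/

open Finset

namespace Vale.Agent.P315.Acc

namespace Sys

variable {X : Type} [Fintype X] [Nonempty X] (S : Sys X)

open Vale.Agent.P315.H278 (Psi conc_step Psi_nonneg Psi_le_mul)

theorem h278_nest_add (j i : ℕ) (x y : X) (h : S.q j x = S.q j y) : S.q (j + i) x = S.q (j + i) y := by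
  induction i with
  | zero => exact h
  | succ i ih => exact S.nest (j + i) x y ih

theorem h278_nest_le {j j' : ℕ} (hj : j ≤ j') (x y : X) (h : S.q j x = S.q j y) :
    S.q j' x = S.q j' y := by
  obtain ⟨i, rfl⟩ := Nat.exists_eq_add_of_le hj
  exact S.h278_nest_add j i x y h

/-- the curve of a node lies below the average of the curves of its descendants of level `j` -/
theorem h278_e_le_av (j i : ℕ) (hi : j + i ≤ S.n) (x : X) (b : ℕ) :
    S.e (j + i) x b ≤ S.av (j + i) (fun y => S.e j y b) x := by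
  induction i generalizing x with
  | zero =>
    unfold av
    rw [Nat.add_zero]
    rw [avg_const S.hw x (fun y hy => by rw [S.meas j y x hy])]
  | succ i ih =>
    have h1 := S.gain (j + i) x b (by omega)
    refine le_trans h1 ?_
    have h2 : avg S.w S.q (j + i + 1) (fun y => S.e (j + i) y b) x
        ≤ avg S.w S.q (j + i + 1) (avg S.w S.q (j + i) (fun y => S.e j y b)) x :=
      avg_mono S.hw x fun y _ => ih (by omega) y
    rw [avg_avg S.hw (fun x y h => S.nest (j + i) x y h)] at h2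
    exact h2

theorem h278_G_nonneg' (s a : ℕ) (ha : a < S.na s) (x : X) (b : ℕ) : 0 ≤ S.G s a x b := by
  have h1 : (a + 1) * 2 ^ s ≤ S.n := by
    have : a + 1 ≤ S.n / 2 ^ s := ha
    calc (a + 1) * 2 ^ s ≤ S.n / 2 ^ s * 2 ^ s := Nat.mul_le_mul_right _ this
      _ ≤ S.n := Nat.div_mul_le_self _ _
  have h2 := S.h278_e_le_av (a * 2 ^ s) (2 ^ s) (by rw [← Nat.succ_mul]; exact h1) x b
  have h3 : a * 2 ^ s + 2 ^ s = (a + 1) * 2 ^ s := by ring
  rw [h3] at h2
  unfold G V
  linarith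

/-- mass of the node of level `j` in block `k` of scale `u` -/
noncomputable def h278_nuB (j o u : ℕ) (x : X) (k : ℕ) : ℝ := S.nu j x (S.b0 o u k) (S.b1 o u k)

theorem h278_b1_eq (o u k : ℕ) : S.b1 o u k = S.b0 o u (k + 1) := rfl

theorem h278_b0_le_b1 (o u k : ℕ) : S.b0 o u k ≤ S.b1 o u k := by
  unfold b0 b1
  have : k * S.D u ≤ (k + 1) * S.D u := Nat.mul_le_mul_right _ (by omega)
  omega

theorem h278_nuB_nonneg (j o u : ℕ) (x : X) (k : ℕ) : 0 ≤ S.h278_nuB j o u x k := by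
  have := S.anti j x (S.h278_b0_le_b1 o u k)
  unfold h278_nuB nu
  linarith

theorem h278_sum_nuB_le (j o u : ℕ) (x : X) (N : ℕ) : ∑ k ∈ range N, S.h278_nuB j o u x k ≤ 1 := by
  have h : ∑ k ∈ range N, S.h278_nuB j o u x k = S.e j x (S.b0 o u 0) - S.e j x (S.b0 o u N) := by
    unfold h278_nuB nu
    simp only [h278_b1_eq]
    exact sum_range_sub' (fun k => S.e j x (S.b0 o u k)) N
  rw [h]
  have h1 := S.le_one j x (S.b0 o u 0)
  have h2 := S.nonneg j x (S.b0 o u N)
  linarith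

theorem h278_nuB_le_one (j o u : ℕ) (x : X) (k : ℕ) : S.h278_nuB j o u x k ≤ 1 := by
  have h1 := S.le_one j x (S.b0 o u k)
  have h2 := S.nonneg j x (S.b1 o u k)
  unfold h278_nuB nu
  linarith

/-- average of the units = top + `G(b0) - G(b1)` -/
theorem h278_av_nuB (t a o u : ℕ) (x : X) (k : ℕ) :
    S.av ((a + 1) * 2 ^ t) (fun y => S.h278_nuB (a * 2 ^ t) o u y k) x
      = S.h278_nuB ((a + 1) * 2 ^ t) o u x k + S.G t a x (S.b0 o u k) - S.G t a x (S.b1 o u k) := by
  unfold h278_nuB nu G V av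
  rw [avg_sub]
  ring

end Sys

section conc

variable {X : Type} [Fintype X]

open Vale.Agent.P315.H278 (Psi conc_step Psi_nonneg Psi_le_mul)

/-- one class, one block -/
theorem h278_conc_avg {w : X → ℝ} {q : ℕ → X → ℕ} (hw : ∀ x, 0 < w x) (j : ℕ) (f : X → ℝ)
    {a Lam nu G : ℝ} (hf : ∀ x, 0 ≤ f x)
    (ha : 0 < a) (ha1 : a ≤ 1) (hL : Real.exp 3 ≤ Lam) (hnu1 : nu ≤ 1) (hG : 0 ≤ G) (x : X)
    (hpG : avg w q j f x ≤ nu + G) :
    avg w q j (fun y => Psi a (f y) + 2 *
        (ind (Lam * avg w q j f y ≤ f y ∧ Real.exp 3 * a ≤ f y) * f y)) x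
      ≤ Psi a nu + (-Real.log a) * G := by
  classical
  set s := univ.filter (fun y => q j y = q j x) with hs
  set W : ℝ := ∑ y ∈ s, w y with hWdef
  have hW : 0 < W := w_fib_pos hw q j x
  have hexp : ∀ g : X → ℝ, avg w q j g x = ∑ y ∈ s, (w y / W) * g y := by
    intro g
    show (∑ y ∈ s, w y * g y) / W = _
    rw [sum_div]
    exact sum_congr rfl fun y _ => by ring
  have hsum : ∑ y ∈ s, w y / W = 1 := by
    rw [← sum_div]
    exact div_self hW.ne'
  have h := conc_step s (fun y => w y / W) f (a := a) (Lam := Lam) (nu := nu) (G := G)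
    (fun i _ => div_nonneg (hw i).le hW.le) hsum (fun i _ => hf i) ha ha1 hL hnu1 hG
    (by rw [← hexp]; exact hpG)
  rw [← hexp f] at h
  refine le_trans (le_of_eq ?_) h
  rw [hexp, mul_sum, ← sum_add_distrib]
  refine sum_congr rfl fun y hy => ?_
  have hy' : q j y = q j x := by simpa [hs] using hy
  rw [avg_congr_pt hy' f]
  by_cases hc : Lam * avg w q j f x ≤ f y ∧ Real.exp 3 * a ≤ f y
  · rw [ind_true hc, if_pos hc]; ring
  · rw [ind_false hc, if_neg hc]; ring

end conc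

namespace Sys

variable {X : Type} [Fintype X] [Nonempty X] (S : Sys X)

open Vale.Agent.P315.H278 (Psi conc_step Psi_nonneg Psi_le_mul)

/-- **(F3)**, fixed offset: excess units of step `2^t` in the blocks of scale `u`. -/
theorem h278_F3_fixed (t u o N : ℕ) {A2 Lam : ℝ} (hA2 : 0 ≤ A2) (hL : Real.exp 3 ≤ Lam) :
    2 * ∑ a ∈ range (S.na t), S.E (fun x => ∑ k ∈ range N,
        ind (Lam * S.av ((a + 1) * 2 ^ t) (fun y => S.h278_nuB (a * 2 ^ t) o u y k) x
            ≤ S.h278_nuB (a * 2 ^ t) o u x k ∧ Real.exp (3 - A2) ≤ S.h278_nuB (a * 2 ^ t) o u x k)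
          * S.h278_nuB (a * 2 ^ t) o u x k)
      ≤ A2 * (1 + ∑ a ∈ range (S.na t), S.E (fun x => ∑ k ∈ range N, S.G t a x (S.b0 o u k))) := by
  set al : ℝ := Real.exp (-A2) with hal
  have hal0 : 0 < al := Real.exp_pos _
  have hal1 : al ≤ 1 := Real.exp_le_one_iff.2 (by linarith)
  have hlog : -Real.log al = A2 := by rw [hal, Real.log_exp]; ring
  have h3 : Real.exp 3 * al = Real.exp (3 - A2) := by
    rw [hal, ← Real.exp_add]; congr 1
  let H : ℕ → ℝ := fun j => S.E (fun x => ∑ k ∈ range N, Psi al (S.h278_nuB (j * 2 ^ t) o u x k))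
  let Z : ℕ → ℝ := fun a => S.E (fun x => ∑ k ∈ range N,
        ind (Lam * S.av ((a + 1) * 2 ^ t) (fun y => S.h278_nuB (a * 2 ^ t) o u y k) x
            ≤ S.h278_nuB (a * 2 ^ t) o u x k ∧ Real.exp (3 - A2) ≤ S.h278_nuB (a * 2 ^ t) o u x k)
          * S.h278_nuB (a * 2 ^ t) o u x k)
  let Y : ℕ → ℝ := fun a => S.E (fun x => ∑ k ∈ range N, S.G t a x (S.b0 o u k))
  have hstep : ∀ a, a < S.na t → H a + 2 * Z a ≤ H (a + 1) + A2 * Y a := by
    intro a hat
    show S.E _ + 2 * S.E _ ≤ S.E _ + A2 * S.E _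
    unfold E
    rw [← EE_mul_left 2, ← EE_mul_left A2, ← EE_add, ← EE_add]
    have e1 : EE S.w (fun x => ∑ k ∈ range N, Psi al (S.h278_nuB (a * 2 ^ t) o u x k)
        + 2 * ∑ k ∈ range N,
        ind (Lam * S.av ((a + 1) * 2 ^ t) (fun y => S.h278_nuB (a * 2 ^ t) o u y k) x
            ≤ S.h278_nuB (a * 2 ^ t) o u x k ∧ Real.exp (3 - A2) ≤ S.h278_nuB (a * 2 ^ t) o u x k)
          * S.h278_nuB (a * 2 ^ t) o u x k)
        = EE S.w (fun x => ∑ k ∈ range N, avg S.w S.q ((a + 1) * 2 ^ t)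
          (fun y => Psi al (S.h278_nuB (a * 2 ^ t) o u y k) + 2 *
            (ind (Lam * avg S.w S.q ((a + 1) * 2 ^ t) (fun z => S.h278_nuB (a * 2 ^ t) o u z k) y
              ≤ S.h278_nuB (a * 2 ^ t) o u y k ∧ Real.exp 3 * al ≤ S.h278_nuB (a * 2 ^ t) o u y k)
              * S.h278_nuB (a * 2 ^ t) o u y k)) x) := by
      rw [EE_sum, sum_congr rfl fun k _ => EE_avg S.hw ((a + 1) * 2 ^ t) _, ← EE_sum]
      congr 1
      funext x
      rw [mul_sum, ← sum_add_distrib]
      rw [h3]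
      rfl
    rw [e1]
    refine EE_mono S.hw fun x => ?_
    rw [mul_sum, ← sum_add_distrib]
    refine sum_le_sum fun k _ => ?_
    have hb1 := S.h278_G_nonneg' t a hat x (S.b1 o u k)
    have hb0 := S.h278_G_nonneg' t a hat x (S.b0 o u k)
    have hav := S.h278_av_nuB t a o u x k
    have := h278_conc_avg S.hw ((a + 1) * 2 ^ t) (fun y => S.h278_nuB (a * 2 ^ t) o u y k) (q := S.q)
      (nu := S.h278_nuB ((a + 1) * 2 ^ t) o u x k) (G := S.G t a x (S.b0 o u k)) (a := al) (Lam := Lam)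
      (fun y => S.h278_nuB_nonneg _ _ _ y k) hal0 hal1 hL (S.h278_nuB_le_one _ _ _ x k) hb0 x
      (by
        have : avg S.w S.q ((a + 1) * 2 ^ t) (fun y => S.h278_nuB (a * 2 ^ t) o u y k) x
            = S.av ((a + 1) * 2 ^ t) (fun y => S.h278_nuB (a * 2 ^ t) o u y k) x := rfl
        rw [this, hav]
        linarith)
    rw [hlog] at this
    exact this
  have htel : ∀ j, j ≤ S.na t → H 0 + 2 * ∑ a ∈ range j, Z a ≤ H j + A2 * ∑ a ∈ range j, Y a := by
    intro j
    induction j with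
    | zero => intro _; simp
    | succ j ih =>
      intro hj
      have h1 := ih (by omega)
      have h2 := hstep j (by omega)
      rw [sum_range_succ, sum_range_succ]
      linarith
  have h0 : 0 ≤ H 0 := EE_nonneg S.hw fun x => sum_nonneg fun k _ =>
    Psi_nonneg hal0 hal1 (S.h278_nuB_nonneg _ _ _ x k) (S.h278_nuB_le_one _ _ _ x k)
  have hm : H (S.na t) ≤ A2 := by
    show EE S.w _ ≤ A2
    calc EE S.w (fun x => ∑ k ∈ range N, Psi al (S.h278_nuB (S.na t * 2 ^ t) o u x k))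
        ≤ EE S.w (fun _ : X => A2) := by
          refine EE_mono S.hw fun x => ?_
          calc ∑ k ∈ range N, Psi al (S.h278_nuB (S.na t * 2 ^ t) o u x k)
              ≤ ∑ k ∈ range N, A2 * S.h278_nuB (S.na t * 2 ^ t) o u x k := by
                refine sum_le_sum fun k _ => ?_
                have := Psi_le_mul (p := S.h278_nuB (S.na t * 2 ^ t) o u x k) hal0
                rwa [hlog] at this
            _ = A2 * ∑ k ∈ range N, S.h278_nuB (S.na t * 2 ^ t) o u x k := by rw [mul_sum]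
            _ ≤ A2 * 1 := mul_le_mul_of_nonneg_left (S.h278_sum_nuB_le _ _ _ x N) hA2
            _ = A2 := by ring
      _ = A2 := EE_const S.hw _
  have := htel (S.na t) le_rfl
  show 2 * ∑ a ∈ range (S.na t), Z a ≤ A2 * (1 + ∑ a ∈ range (S.na t), Y a)
  linarith

end Sys

end Vale.Agent.P315.Acc
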